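import Mathlib

/-!
# P166: grids and empirical frequencies
-/

namespace Vale.Agent.P166.Apx

open MeasureTheory Finset Function Filter Topology
open scoped BigOperators ENNReal

/-- The empirical measure of a sample. -/
noncomputable def emp {N : ℕ} (x : Fin (N + 1) → ℝ) : Measure ℝ :=
  ((N + 1 : ℕ) : ℝ≥0∞)⁻¹ • ∑ i, Measure.dirac (x i)

instance emp_prob {N : ℕ} (x : Fin (N + 1) → ℝ) : IsProbabilityMeasure (emp x) := by
  constructor
  simp only [emp, Measure.smul_apply, Measure.finsetSum_apply, measure_univ, sum_const, card_univ,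
    Fintype.card_fin, nsmul_eq_mul, mul_one, smul_eq_mul]
  exact ENNReal.inv_mul_cancel (by simp) (by simp)

theorem emp_int {N : ℕ} (x : Fin (N + 1) → ℝ) (f : BoundedContinuousFunction ℝ ℝ) :
    ∫ y, f y ∂(emp x) = (∑ i, f (x i)) / ((N + 1 : ℕ) : ℝ) := by
  rw [emp, integral_smul_measure, integral_finsetSum_measure fun i _ => f.integrable _]
  simp only [integral_dirac, ENNReal.toReal_inv, ENNReal.toReal_natCast, smul_eq_mul]
  rw [div_eq_inv_mul]

theorem emp_real {N : ℕ} (x : Fin (N + 1) → ℝ) (E : Set ℝ) (p : Fin (N + 1) → Prop)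
    [DecidablePred p] (hp : ∀ i, p i ↔ x i ∈ E) :
    (emp x E).toReal = ((univ.filter p).card : ℝ) / ((N + 1 : ℕ) : ℝ) := by
  classical
  have : ∑ i, Measure.dirac (x i) E = ((univ.filter p).card : ℝ≥0∞) := by
    rw [card_filter]
    push_cast
    refine sum_congr rfl fun i _ => ?_
    by_cases h : p i
    · rw [if_pos h, Measure.dirac_apply_of_mem ((hp i).1 h)]
    · rw [if_neg h, Measure.dirac_apply, Set.indicator_of_notMem fun h' => h ((hp i).2 h')]
  rw [emp, Measure.smul_apply, Measure.finsetSum_apply, this, smul_eq_mul, ENNReal.toReal_mul,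
    ENNReal.toReal_inv, ENNReal.toReal_natCast, ENNReal.toReal_natCast, div_eq_inv_mul]

theorem freq (μ : Measure ℝ) [IsProbabilityMeasure μ] (lam : ∀ N : ℕ, Fin N → ℝ)
    (hw : ∀ f : BoundedContinuousFunction ℝ ℝ,
      Tendsto (fun N : ℕ => (∑ i, f (lam N i)) / (N : ℝ)) atTop (𝓝 (∫ y, f y ∂μ)))
    {E : Set ℝ} (hE : μ (frontier E) = 0) (p : ∀ N, Fin N → Prop) [∀ N, DecidablePred (p N)]
    (hp : ∀ N i, p N i ↔ lam N i ∈ E) :
    Tendsto (fun N : ℕ => ((univ.filter (p N)).card : ℝ) / (N : ℝ)) atTop (𝓝 (μ.real E)) := by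
  let ν : ℕ → ProbabilityMeasure ℝ := fun N => ⟨emp (lam (N + 1)), inferInstance⟩
  have h1 : Tendsto ν atTop (𝓝 (⟨μ, inferInstance⟩ : ProbabilityMeasure ℝ)) := by
    refine ProbabilityMeasure.tendsto_iff_forall_integral_tendsto.2 fun f => ?_
    have := (tendsto_add_atTop_iff_nat 1).2 (hw f)
    refine this.congr fun N => ?_
    exact (emp_int (lam (N + 1)) f).symm
  have h2 := ProbabilityMeasure.tendsto_measure_of_null_frontier_of_tendsto' h1 (E := E) hE
  have h3 := (ENNReal.tendsto_toReal (measure_ne_top μ E)).comp h2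
  rw [← tendsto_add_atTop_iff_nat 1]
  refine h3.congr fun N => ?_
  exact emp_real (lam (N + 1)) E (p (N + 1)) (hp (N + 1))

/-- The cell of a point. -/
noncomputable def cell (c δ y : ℝ) : ℤ := ⌈(y - c) / δ⌉

theorem le_rt {c δ : ℝ} (hδ : 0 < δ) (y : ℝ) : y ≤ c + cell c δ y * δ := by
  have := Int.le_ceil ((y - c) / δ)
  rw [div_le_iff₀ hδ] at this
  rw [cell]
  linarith

theorem rt_lt {c δ : ℝ} (hδ : 0 < δ) (y : ℝ) : c + cell c δ y * δ - δ < y := by
  have := Int.ceil_lt_add_one ((y - c) / δ)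
  rw [← sub_lt_iff_lt_add, lt_div_iff₀ hδ] at this
  rw [cell]
  linarith

theorem cell_eq {c δ : ℝ} (hδ : 0 < δ) {y : ℝ} {i : ℤ} (h1 : c + i * δ - δ < y)
    (h2 : y ≤ c + i * δ) : cell c δ y = i := by
  rw [cell, Int.ceil_eq_iff, lt_div_iff₀ hδ, div_le_iff₀ hδ]
  constructor <;> linarith

theorem cell_mono {c δ : ℝ} (hδ : 0 < δ) : Monotone (cell c δ) := fun _ _ h =>
  Int.ceil_mono (div_le_div_of_nonneg_right (sub_le_sub_right h c) hδ.le)

theorem cell_meas (c δ : ℝ) : Measurable (cell c δ) :=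
  Int.measurable_ceil.comp ((measurable_id.sub_const c).div_const δ)

theorem ev_cell {c δ : ℝ} (hδ : 0 < δ) {y : ℝ} (hy : ∀ i : ℤ, y ≠ c + i * δ) :
    ∀ᶠ z in 𝓝 y, cell c δ z = cell c δ y := by
  have h := Ioo_mem_nhds (rt_lt (c := c) hδ y) (lt_of_le_of_ne (le_rt (c := c) hδ y) (hy _))
  filter_upwards [h] with z hz
  exact cell_eq hδ hz.1 hz.2.le

theorem frontier_cell {c δ : ℝ} (hδ : 0 < δ) (T : Set ℤ) :
    frontier (cell c δ ⁻¹' T) ⊆ ⋃ i : ℤ, {c + i * δ} := by
  intro y hy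
  by_contra hn
  simp only [Set.mem_iUnion, Set.mem_singleton_iff, not_exists] at hn
  have h := ev_cell hδ hn
  rw [frontier_eq_inter_compl_interior] at hy
  by_cases hT : cell c δ y ∈ T
  · refine hy.1 (mem_interior_iff_mem_nhds.2 ?_)
    filter_upwards [h] with z hz
    rw [Set.mem_preimage, hz]
    exact hT
  · refine hy.2 (mem_interior_iff_mem_nhds.2 ?_)
    filter_upwards [h] with z hz
    rw [Set.mem_compl_iff, Set.mem_preimage, hz]
    exact hT

theorem exists_grid (μ : Measure ℝ) [IsProbabilityMeasure μ] (δ a b : ℝ) : ∃ c : ℝ,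
    (∀ i : ℤ, μ {c + i * δ} = 0) ∧ (∀ i : ℤ, a ≠ c + i * δ) ∧ ∀ i : ℤ, b ≠ c + i * δ := by
  have h1 : Set.Countable {t : ℝ | 0 < μ {y | id y = t}} :=
    Measure.countable_meas_level_set_pos measurable_id
  have h2 := (h1.insert a).insert b
  have h3 : Set.Countable (⋃ i : ℤ, (fun t : ℝ => t - i * δ) ''
      insert b (insert a {t : ℝ | 0 < μ {y | id y = t}})) :=
    Set.countable_iUnion fun i => h2.image _
  obtain ⟨c, hc⟩ := h3.dense_compl ℝ |>.nonempty
  simp only [Set.mem_compl_iff, Set.mem_iUnion, Set.mem_image, not_exists, not_and] at hc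
  refine ⟨c, fun i => ?_, fun i h => ?_, fun i h => ?_⟩
  · by_contra h
    refine hc i (c + i * δ) (Or.inr (Or.inr ?_)) (by ring)
    exact pos_iff_ne_zero.2 h
  · exact hc i a (Or.inr (Or.inl rfl)) (by rw [h]; ring)
  · exact hc i b (Or.inl rfl) (by rw [h]; ring)

theorem int_cell (μ : Measure ℝ) [IsProbabilityMeasure μ] {c δ : ℝ} {S : Finset ℤ}
    (hS : ∀ᵐ y ∂μ, cell c δ y ∈ S) (φ : ℤ → ℝ) :
    Integrable (fun y => φ (cell c δ y)) μ ∧
      ∫ y, φ (cell c δ y) ∂μ = ∑ j ∈ S, μ.real (cell c δ ⁻¹' {j}) * φ j := by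
  have hm : ∀ j : ℤ, MeasurableSet (cell c δ ⁻¹' {j}) := fun j =>
    cell_meas c δ (measurableSet_singleton j)
  have he : (fun y => ∑ j ∈ S, (cell c δ ⁻¹' {j}).indicator (fun _ => φ j) y) =ᵐ[μ]
      fun y => φ (cell c δ y) := by
    filter_upwards [hS] with y hy
    rw [sum_eq_single_of_mem _ hy]
    · exact Set.indicator_of_mem (by simp) _
    · intro j _ hj
      exact Set.indicator_of_notMem (fun h => hj (Eq.symm h)) _
  have hi : ∀ j ∈ S, Integrable ((cell c δ ⁻¹' {j}).indicator fun _ => φ j) μ := fun j _ =>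
    (integrable_const _).indicator (hm j)
  refine ⟨(integrable_finsetSum _ hi).congr he, ?_⟩
  rw [← integral_congr_ae he, integral_finsetSum _ hi]
  refine sum_congr rfl fun j _ => ?_
  rw [integral_indicator_const _ (hm j), smul_eq_mul]

end Vale.Agent.P166.Apx
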