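import Vale.Agent.P157.Defs

/-!
# P166: orthogonally invariant Ising spin glasses, the pressure and the variational formula
-/

namespace Vale.Agent.P166

open MeasureTheory Finset Matrix Vale.Agent.P157
open scoped BigOperators

/-- The pressure of the model with coupling matrix `Uᵀ diag(lam) U`. -/
noncomputable def press {N : ℕ} (β : ℝ) (lam : Fin N → ℝ)
    (U : Matrix.orthogonalGroup (Fin N) ℝ) : ℝ :=
  (1 / (N : ℝ)) * Real.log (𝔼 s : Fin N → Bool, Real.exp (β / 2 *
    ((fun i => if s i then (1 : ℝ) else -1) ⬝ᵥ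
      ((U.1ᵀ * Matrix.diagonal lam * U.1) *ᵥ fun i => if s i then (1 : ℝ) else -1))))

/-- The Stieltjes transform to the right of the support. -/
noncomputable def stj (μ : Measure ℝ) (b : ℝ) : ℝ := ∫ y, (b - y)⁻¹ ∂μ

/-- The inverse of the Stieltjes transform, frozen at the upper edge of the support. -/
noncomputable def Kinv (μ : Measure ℝ) (x : ℝ) : ℝ :=
  sInf {b | sSup μ.support < b ∧ stj μ b ≤ x}

/-- The R-transform, continued beyond the edge; its value at `0` is the mean. -/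
noncomputable def Rtr (μ : Measure ℝ) (x : ℝ) : ℝ :=
  if x = 0 then ∫ y, y ∂μ else Kinv μ x - x⁻¹

/-- `∫_q^1 ζ`, where `ζ` is the distribution function of the uniform law on
`p 1, ..., p (n+1)`. -/
noncomputable def chiq (n : ℕ) (p : ℕ → ℝ) (q : ℝ) : ℝ :=
  1 - q - (∑ j ∈ Icc 1 (n + 1), max (p j - q) 0) / ((n : ℝ) + 1)

/-- The energy term of the formula, for a given function `R`. -/
noncomputable def orth (R : ℝ → ℝ) (β : ℝ) (n : ℕ) (p : ℕ → ℝ) : ℝ :=
  β / 2 * ∫ q in (0 : ℝ)..1, R (β * chiq n p q)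

/-- Trial values at depth `n`. -/
def trial (R : ℝ → ℝ) (β : ℝ) (n : ℕ) : Set ℝ :=
  {t | ∃ (p : ℕ → ℝ) (s : ℝ), Adm n p ∧ (∀ q, Mono n q → spinI n p q ≤ s) ∧
    t = orth R β n p + s}

end Vale.Agent.P166
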