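import Vale.Agent.P166.HaarG

/-!
# P166: the orthogonal group, rotations, reflections and moments
-/

namespace Vale.Agent.P166

open MeasureTheory Function Matrix Finset
open scoped BigOperators

/-- The orthogonal group. -/
abbrev OG (I : Type) [Fintype I] [DecidableEq I] := Matrix.orthogonalGroup I ℝ

variable {I : Type} [Fintype I] [DecidableEq I]

instance : SecondCountableTopology (Matrix I I ℝ) :=
  inferInstanceAs (SecondCountableTopology (I → I → ℝ))

instance : SecondCountableTopology (OG I) :=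
  TopologicalSpace.Subtype.secondCountableTopology (Matrix.orthogonalGroup I ℝ : Set (Matrix I I ℝ))

instance : CompactSpace (OG I) := by
  refine (isCompact_iff_compactSpace
    (s := (Matrix.orthogonalGroup I ℝ : Set (Matrix I I ℝ)))).mp ?_
  have h1 : IsCompact (Set.univ.pi fun _ : I => Set.univ.pi fun _ : I => Set.Icc (-1 : ℝ) 1) :=
    isCompact_univ_pi fun _ => isCompact_univ_pi fun _ => isCompact_Icc
  have h2 : IsClosed (Matrix.orthogonalGroup I ℝ : Set (Matrix I I ℝ)) := by
    have : (Matrix.orthogonalGroup I ℝ : Set (Matrix I I ℝ)) = {A | A * Aᵀ = 1} := by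
      ext A; exact mem_orthogonalGroup_iff I ℝ
    rw [this]
    exact isClosed_eq (by fun_prop) continuous_const
  exact IsCompact.of_isClosed_subset (X := Matrix I I ℝ) h1 h2 fun A hA i _ j _ =>
    abs_le.mp (entry_norm_bound_of_unitary hA i j)

/-- The action on vectors. -/
def act (U : OG I) (x : I → ℝ) : I → ℝ := (U : Matrix I I ℝ) *ᵥ x

theorem act_apply (U : OG I) (x : I → ℝ) (i : I) : act U x i = ∑ a, U.1 i a * x a := rfl

theorem act_mul (U V : OG I) (x : I → ℝ) : act (U * V) x = act U (act V x) := by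
  simp [act, mulVec_mulVec]

theorem act_one (x : I → ℝ) : act 1 x = x := by simp [act]

theorem act_inv_act (U : OG I) (x : I → ℝ) : act U⁻¹ (act U x) = x := by
  rw [← act_mul, inv_mul_cancel, act_one]

theorem act_act_inv (U : OG I) (x : I → ℝ) : act U (act U⁻¹ x) = x := by
  rw [← act_mul, mul_inv_cancel, act_one]

theorem coe_inv (U : OG I) : ((U⁻¹ : OG I) : Matrix I I ℝ) = (U : Matrix I I ℝ)ᵀ := rfl

theorem dot_act (U : OG I) (x y : I → ℝ) : x ⬝ᵥ act U y = act U⁻¹ x ⬝ᵥ y := by
  rw [act, act, coe_inv, dotProduct_mulVec, mulVec_transpose]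

theorem act_dot (U : OG I) (x y : I → ℝ) : act U x ⬝ᵥ act U y = x ⬝ᵥ y := by
  rw [dot_act, act_inv_act]

theorem sum_act_sq (U : OG I) (x : I → ℝ) : ∑ i, act U x i ^ 2 = ∑ i, x i ^ 2 := by
  simpa only [dotProduct, sq] using act_dot U x x

theorem act_add (U : OG I) (x y : I → ℝ) : act U (x + y) = act U x + act U y := mulVec_add _ _ _
theorem act_sub (U : OG I) (x y : I → ℝ) : act U (x - y) = act U x - act U y := mulVec_sub _ _ _
theorem act_smul (U : OG I) (c : ℝ) (x : I → ℝ) : act U (c • x) = c • act U x :=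
  mulVec_smul _ _ _

theorem act_row (U : OG I) (x : I → ℝ) (e : I) :
    act U⁻¹ (Pi.single e 1) ⬝ᵥ x = act U x e := by
  rw [← dot_act, single_dotProduct, one_mul]

theorem og_ext {U V : OG I} (h : ∀ x, act U x = act V x) : U = V :=
  Subtype.ext (Matrix.ext fun i j => by
    simpa [act] using congrFun (h (Pi.single j 1)) i)

@[fun_prop]
theorem continuous_act {X : Type} [TopologicalSpace X] {U : X → OG I} {x : X → I → ℝ}
    (hU : Continuous U) (hx : Continuous x) : Continuous fun p => act (U p) (x p) :=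
  (continuous_subtype_val.comp hU).matrix_mulVec hx

/-! ### Plane rotations -/

/-- The generator of the rotation in the plane `(i, j)`. -/
def gn (i j : I) : Matrix I I ℝ := single i j 1 - single j i 1

theorem gn_mulVec (i j : I) (x : I → ℝ) (k : I) :
    (gn i j *ᵥ x) k = (if k = i then x j else 0) - if k = j then x i else 0 := by
  simp [gn, sub_mulVec, single_mulVec, Function.update_apply]

theorem gn_cube (i j : I) : gn i j * gn i j * gn i j = -gn i j := by
  by_cases h : i = j
  · subst h; simp [gn]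
  · have h' := Ne.symm h
    simp [gn, mul_sub, sub_mul, single_mul_single_of_ne, h, h']
    abel

omit [Fintype I] in
theorem gn_transpose (i j : I) : (gn i j)ᵀ = -gn i j := by
  simp [gn, transpose_sub]

/-- The rotation matrix. -/
noncomputable def rotM (i j : I) (s : ℝ) : Matrix I I ℝ :=
  1 + Real.sin s • gn i j + (1 - Real.cos s) • (gn i j * gn i j)

theorem rotM_add (i j : I) (s t : ℝ) : rotM i j (s + t) = rotM i j s * rotM i j t := by
  have h3 := gn_cube i j
  have h3' : gn i j * (gn i j * gn i j) = -gn i j := by rw [← mul_assoc, h3]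
  have h4 : gn i j * gn i j * (gn i j * gn i j) = -(gn i j * gn i j) := by
    rw [← mul_assoc, h3, neg_mul]
  simp only [rotM, mul_add, add_mul, smul_mul_assoc, mul_smul_comm, one_mul, mul_one, h3, h3', h4,
    Real.sin_add, Real.cos_add]
  module

theorem rotM_zero (i j : I) : rotM i j 0 = 1 := by simp [rotM]

theorem rotM_transpose (i j : I) (s : ℝ) : (rotM i j s)ᵀ = rotM i j (-s) := by
  simp [rotM, transpose_add, transpose_mul, gn_transpose]

/-- The rotation by the angle `s` in the plane `(i, j)`. -/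
noncomputable def rot (i j : I) (s : ℝ) : OG I :=
  ⟨rotM i j s, (mem_orthogonalGroup_iff I ℝ).mpr (by
    rw [rotM_transpose, ← rotM_add, add_neg_cancel, rotM_zero])⟩

theorem rot_add (i j : I) (s t : ℝ) : rot i j (s + t) = rot i j s * rot i j t :=
  Subtype.ext (rotM_add i j s t)

theorem rot_zero (i j : I) : rot i j 0 = 1 := Subtype.ext (rotM_zero i j)

theorem continuous_rot (i j : I) : Continuous (rot i j) :=
  Continuous.subtype_mk (by unfold rotM; fun_prop) _

theorem act_rot (i j : I) (s : ℝ) (x : I → ℝ) (k : I) : act (rot i j s) x k =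
    x k + Real.sin s * (gn i j *ᵥ x) k + (1 - Real.cos s) * ((gn i j * gn i j) *ᵥ x) k := by
  simp [act, rot, rotM, add_mulVec, smul_mulVec]

theorem hasDerivAt_rot (i j : I) (U : OG I) (x : I → ℝ) (k : I) :
    HasDerivAt (fun s => act (rot i j s * U) x k)
      ((if k = i then act U x j else 0) - if k = j then act U x i else 0) 0 := by
  simp only [act_mul, act_rot, ← gn_mulVec]
  have h1 := ((Real.hasDerivAt_sin 0).mul_const ((gn i j *ᵥ act U x) k)).const_add (act U x k)
  have h2 := ((Real.hasDerivAt_cos 0).const_sub 1).mul_const (((gn i j * gn i j) *ᵥ act U x) k)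
  exact (h1.add h2).congr_deriv (by simp)

theorem act_rot_zero (i j : I) (U : OG I) : rot i j 0 * U = U := by rw [rot_zero, one_mul]

/-! ### Subgroups acting on a set of coordinates -/

/-- The subgroup fixing the basis vectors outside `A`. -/
def fixG (A : Finset I) : Subgroup (OG I) where
  carrier := {V | ∀ a ∉ A, act V (Pi.single a 1) = Pi.single a 1}
  one_mem' := fun _ _ => act_one _
  mul_mem' := fun hU hV a ha => by rw [act_mul, hV a ha, hU a ha]
  inv_mem' := fun {V} hV a ha => by rw [← hV a ha, act_inv_act, hV a ha]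

theorem mem_fixG {A : Finset I} {V : OG I} :
    V ∈ fixG A ↔ ∀ a ∉ A, act V (Pi.single a 1) = Pi.single a 1 := Iff.rfl

theorem fixG_mono {A B : Finset I} (h : A ⊆ B) : fixG A ≤ fixG B :=
  fun _ hV a ha => hV a fun h' => ha (h h')

theorem mem_fixG_univ (V : OG I) : V ∈ fixG (univ : Finset I) := fun a ha => (ha (mem_univ a)).elim

theorem act_fix {A : Finset I} {V : OG I} (hV : V ∈ fixG A) (x : I → ℝ) {a : I} (ha : a ∉ A) :
    act V x a = x a := by
  rw [← act_row, (fixG A).inv_mem hV a ha, single_dotProduct, one_mul]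

theorem isClosed_fixG (A : Finset I) : IsClosed (fixG A : Set (OG I)) := by
  have : (fixG A : Set (OG I)) =
      ⋂ a ∈ {a | a ∉ A}, {V | act V (Pi.single a 1) = Pi.single a 1} := by
    ext V; simp [mem_fixG]
  rw [this]
  exact isClosed_biInter fun a _ => isClosed_eq (by fun_prop) continuous_const

theorem rot_mem {A : Finset I} {i j : I} (hi : i ∈ A) (hj : j ∈ A) (s : ℝ) :
    rot i j s ∈ fixG A := fun a ha => by
  have h0 : gn i j *ᵥ Pi.single a (1 : ℝ) = 0 := by
    have h1 : j ≠ a := fun h => ha (h ▸ hj)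
    have h2 : i ≠ a := fun h => ha (h ▸ hi)
    funext k; simp [gn_mulVec, h1, h2]
  funext k
  rw [act_rot, ← mulVec_mulVec, h0]
  simp

/-- Partial dot products over a set containing or avoiding `A` are invariant. -/
theorem sum_act_fix {A S : Finset I} {V : OG I} (hV : V ∈ fixG A) (hS : A ⊆ S ∨ Disjoint A S)
    (x y : I → ℝ) : ∑ i ∈ S, act V x i * act V y i = ∑ i ∈ S, x i * y i := by
  rcases hS with h | h
  · have h1 := act_dot V x y
    simp only [dotProduct] at h1
    rw [← sum_add_sum_compl S, ← sum_add_sum_compl S fun i => x i * y i,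
      sum_congr rfl (s₁ := Sᶜ) (g := fun i => x i * y i) fun a ha => by
        have : a ∉ A := fun h' => mem_compl.mp ha (h h')
        rw [act_fix hV x this, act_fix hV y this]] at h1
    linarith
  · exact sum_congr rfl fun a ha => by
      have : a ∉ A := fun h' => disjoint_left.mp h h' ha
      rw [act_fix hV x this, act_fix hV y this]

/-! ### Reflections -/

/-- The reflection in the hyperplane orthogonal to `w`. -/
noncomputable def refl (w : I → ℝ) : OG I :=
  ⟨1 - (2 / (w ⬝ᵥ w)) • vecMulVec w w, (mem_orthogonalGroup_iff I ℝ).mpr (by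
    have h : vecMulVec w w * vecMulVec w w = (w ⬝ᵥ w) • vecMulVec w w := by
      rw [vecMulVec_mul_vecMulVec]; ext i j; simp [vecMulVec_apply]; ring
    simp only [transpose_sub, transpose_one, transpose_smul, transpose_vecMulVec, mul_sub, sub_mul,
      one_mul, mul_one, smul_mul_assoc, mul_smul_comm, h, smul_smul]
    by_cases h0 : w ⬝ᵥ w = 0
    · simp [h0]
    · rw [div_mul_cancel₀ _ h0]; module)⟩

theorem act_refl (w x : I → ℝ) : act (refl w) x = x - (2 * (w ⬝ᵥ x) / (w ⬝ᵥ w)) • w := by
  simp only [act, refl, sub_mulVec, one_mulVec, smul_mulVec, vecMulVec_mulVec]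
  funext k
  simp
  ring

theorem refl_inv (w : I → ℝ) : (refl w)⁻¹ = refl w :=
  Subtype.ext (by rw [coe_inv]; simp [refl, transpose_sub])

theorem refl_mul_self (w : I → ℝ) : refl w * refl w = 1 := by
  nth_rw 1 [← refl_inv]; exact inv_mul_cancel _

theorem refl_mem {A : Finset I} {w : I → ℝ} (h : ∀ a ∉ A, w a = 0) : refl w ∈ fixG A :=
  fun a ha => by simp [act_refl, h a ha]

theorem act_refl_sub {x y : I → ℝ} (h : x ⬝ᵥ x = y ⬝ᵥ y) : act (refl (x - y)) y = x := by
  rw [act_refl]
  by_cases h0 : (x - y) ⬝ᵥ (x - y) = 0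
  · rw [dotProduct_self_eq_zero, sub_eq_zero] at h0
    simp [h0]
  · have h1 : 2 * ((x - y) ⬝ᵥ y) = -((x - y) ⬝ᵥ (x - y)) := by
      simp only [sub_dotProduct, dotProduct_sub, dotProduct_comm y x]; linarith
    rw [h1, neg_div, div_self h0]; simp

theorem mul_refl (W : OG I) (w : I → ℝ) : W * refl w = refl (act W w) * W :=
  og_ext fun x => by rw [act_mul, act_mul, act_refl, act_refl, act_sub, act_smul, act_dot, act_dot]

/-! ### Moments -/

section mom
variable [MeasurableSpace (OG I)] [BorelSpace (OG I)]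

theorem exists_fix (A : Finset I) : ∃ μ, SubH (fixG A) μ := exists_subH _ (isClosed_fixG A)

theorem SubH.flow {A : Finset I} {μ : Measure (OG I)} (h : SubH (fixG A) μ) {i j : I}
    (hi : i ∈ A) (hj : j ∈ A) {Φ g : OG I → ℝ} (hΦ : Continuous Φ) (hg : Continuous g)
    (hd : ∀ U, HasDerivAt (fun s => Φ (rot i j s * U)) (g U) 0) : ∫ U, g U ∂μ = 0 :=
  haveI := h.prob
  flow0 μ (continuous_rot i j) (rot_add i j) (fun s => h.left _ (rot_mem hi hj s)) hΦ hg hd

theorem flow_rot (ν : Measure (OG I)) [IsProbabilityMeasure ν] [ν.IsMulLeftInvariant] (i j : I)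
    {Φ g : OG I → ℝ} (hΦ : Continuous Φ) (hg : Continuous g)
    (hd : ∀ U, HasDerivAt (fun s => Φ (rot i j s * U)) (g U) 0) : ∫ U, g U ∂ν = 0 :=
  (subH_top ν mem_fixG_univ).flow (mem_univ i) (mem_univ j) hΦ hg hd

variable {A : Finset I} {μ : Measure (OG I)}

theorem SubH.mom2 (h : SubH (fixG A) μ) {i : I} (hi : i ∈ A) (x : I → ℝ) :
    A.card * ∫ V, act V x i ^ 2 ∂μ = ∑ j ∈ A, x j ^ 2 := by
  have := h.prob
  have h1 : ∀ j ∈ A, ∫ V, act V x j ^ 2 ∂μ = ∫ V, act V x i ^ 2 ∂μ := fun j hj => by
    by_cases hij : i = j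
    · rw [hij]
    have := h.flow hi hj (Φ := fun V => act V x i * act V x j)
      (g := fun V => act V x j ^ 2 - act V x i ^ 2) (by fun_prop) (by fun_prop) fun U => by
        refine ((hasDerivAt_rot i j U x i).mul (hasDerivAt_rot i j U x j)).congr_deriv ?_
        simp [act_rot_zero, hij, Ne.symm hij]; ring
    rwa [integral_sub (intg _ (by fun_prop)) (intg _ (by fun_prop)), sub_eq_zero] at this
  rw [← nsmul_eq_mul, ← sum_const, ← sum_congr rfl h1,
    ← integral_finsetSum _ fun j _ => intg _ (by fun_prop)]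
  rw [integral_congr_ae (g := fun _ => ∑ j ∈ A, x j ^ 2)]
  · simp
  · filter_upwards [h.mem] with V hV
    simpa only [sq] using sum_act_fix hV (Or.inl subset_rfl) x x

theorem SubH.mom4 (h : SubH (fixG A) μ) {i : I} (hi : i ∈ A) (x : I → ℝ) :
    (A.card : ℝ) ^ 2 * ∫ V, act V x i ^ 4 ∂μ ≤ 3 * (∑ j ∈ A, x j ^ 2) ^ 2 := by
  have := h.prob
  have h1 : ∀ j ∈ A, ∫ V, act V x i ^ 4 ∂μ ≤ ∫ V, 3 * (act V x i ^ 2 * act V x j ^ 2) ∂μ :=
    fun j hj => by
    by_cases hij : i = j
    · subst hij
      exact int_mono _ (by fun_prop) (by fun_prop) fun V => by nlinarith [sq_nonneg (act V x i ^ 2)]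
    have := h.flow hi hj (Φ := fun V => act V x i ^ 3 * act V x j)
      (g := fun V => 3 * (act V x i ^ 2 * act V x j ^ 2) - act V x i ^ 4) (by fun_prop)
      (by fun_prop) fun U => by
        refine (((hasDerivAt_rot i j U x i).pow 3).mul (hasDerivAt_rot i j U x j)).congr_deriv ?_
        simp [act_rot_zero, hij, Ne.symm hij]; ring
    rw [integral_sub (intg _ (by fun_prop)) (intg _ (by fun_prop)), sub_eq_zero] at this
    exact this.ge
  have h2 := sum_le_sum h1
  rw [sum_const, nsmul_eq_mul, ← integral_finsetSum _ fun j _ => intg _ (by fun_prop),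
    integral_congr_ae (f := fun V => ∑ j ∈ A, 3 * (act V x i ^ 2 * act V x j ^ 2))
      (g := fun V => (3 * ∑ j ∈ A, x j ^ 2) * act V x i ^ 2),
    integral_const_mul] at h2
  · have h3 := h.mom2 hi x
    have h4 : (0 : ℝ) ≤ A.card := Nat.cast_nonneg _
    calc _ = A.card * (A.card * ∫ V, act V x i ^ 4 ∂μ) := by ring
      _ ≤ A.card * ((3 * ∑ j ∈ A, x j ^ 2) * ∫ V, act V x i ^ 2 ∂μ) := by gcongr
      _ = _ := by rw [mul_left_comm, h3]; ring
  · filter_upwards [h.mem] with V hV
    have := sum_act_fix hV (Or.inl subset_rfl) x x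
    simp only [← sq] at this
    rw [← mul_sum, ← mul_sum, this]; ring

end mom

end Vale.Agent.P166
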