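import Mathlib

/-!
# P166: invariant probability measures on compact groups
-/

namespace Vale.Agent.P166

open MeasureTheory Function

section top
variable {X Y : Type} [TopologicalSpace X] [TopologicalSpace Y]

theorem intg [CompactSpace X] [MeasurableSpace X] [OpensMeasurableSpace X] (ν : Measure X)
    [IsFiniteMeasure ν] {f : X → ℝ} (hf : Continuous f) : Integrable f ν :=
  hf.integrable_of_hasCompactSupport (HasCompactSupport.of_compactSpace f)

theorem cont_int [CompactSpace Y] [SecondCountableTopology Y] [MeasurableSpace Y]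
    [OpensMeasurableSpace Y] [FirstCountableTopology X] [LocallyCompactSpace X] (ν : Measure Y)
    [IsFiniteMeasure ν] {f : X → Y → ℝ} (hf : Continuous (uncurry f)) :
    Continuous fun x => ∫ y, f x y ∂ν := by
  simpa using continuous_parametric_integral_of_continuous (μ := ν) hf isCompact_univ

theorem swap_int [CompactSpace X] [SecondCountableTopology X] [MeasurableSpace X]
    [OpensMeasurableSpace X] [CompactSpace Y] [SecondCountableTopology Y] [MeasurableSpace Y]
    [OpensMeasurableSpace Y] (μ : Measure X) (ν : Measure Y) [IsFiniteMeasure μ]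
    [IsFiniteMeasure ν] {f : X → Y → ℝ} (hf : Continuous (uncurry f)) :
    ∫ x, ∫ y, f x y ∂ν ∂μ = ∫ y, ∫ x, f x y ∂μ ∂ν :=
  integral_integral_swap (intg _ hf)

theorem sq_int_le [CompactSpace X] [MeasurableSpace X] [OpensMeasurableSpace X] (ν : Measure X)
    [IsProbabilityMeasure ν] {f : X → ℝ} (hf : Continuous f) :
    (∫ x, f x ∂ν) ^ 2 ≤ ∫ x, f x ^ 2 ∂ν := by
  have h : 0 ≤ ∫ x, (f x - ∫ x, f x ∂ν) ^ 2 ∂ν := integral_nonneg fun _ => sq_nonneg _
  have e : ∀ x, (f x - ∫ x, f x ∂ν) ^ 2 =
      (f x ^ 2 - (2 * ∫ x, f x ∂ν) * f x) + (∫ x, f x ∂ν) ^ 2 := fun x => by ring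
  simp only [e] at h
  rw [integral_add (intg _ (by fun_prop)) (intg _ (by fun_prop)),
    integral_sub (intg _ (by fun_prop)) (intg _ (by fun_prop)), integral_const_mul] at h
  simp at h
  nlinarith

theorem int_abs_le_sqrt [CompactSpace X] [MeasurableSpace X] [OpensMeasurableSpace X]
    (ν : Measure X) [IsProbabilityMeasure ν] {f : X → ℝ} (hf : Continuous f) {c : ℝ}
    (h : ∫ x, f x ^ 2 ∂ν ≤ c) : ∫ x, |f x| ∂ν ≤ Real.sqrt c := by
  refine Real.le_sqrt_of_sq_le ((sq_int_le ν hf.abs).trans ?_)
  simpa only [sq_abs] using h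

theorem int_mono [CompactSpace X] [MeasurableSpace X] [OpensMeasurableSpace X] (ν : Measure X)
    [IsFiniteMeasure ν] {f g : X → ℝ} (hf : Continuous f) (hg : Continuous g)
    (h : ∀ x, f x ≤ g x) : ∫ x, f x ∂ν ≤ ∫ x, g x ∂ν := integral_mono (intg ν hf) (intg ν hg) h

theorem int_le_const [CompactSpace X] [MeasurableSpace X] [OpensMeasurableSpace X]
    (ν : Measure X) [IsProbabilityMeasure ν] {f : X → ℝ} (hf : Continuous f) {c : ℝ}
    (h : ∀ x, f x ≤ c) : ∫ x, f x ∂ν ≤ c := by
  simpa using int_mono ν hf continuous_const h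

end top

section grp
variable {G : Type} [Group G] [TopologicalSpace G] [IsTopologicalGroup G]
  [MeasurableSpace G] [BorelSpace G]

theorem left_eq_right [SecondCountableTopology G] (ν ν' : Measure G) [IsProbabilityMeasure ν]
    [IsProbabilityMeasure ν'] [ν.IsMulLeftInvariant] [ν'.IsMulRightInvariant] : ν = ν' := by
  ext s hs
  have hm : Measurable (uncurry fun x y : G => s.indicator (1 : G → ENNReal) (y * x)) :=
    (measurable_one.indicator hs).comp (measurable_snd.mul measurable_fst)
  have h := lintegral_lintegral_swap (μ := ν) (ν := ν') hm.aemeasurable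
  simp only [lintegral_mul_right_eq_self (μ := ν') (s.indicator (1 : G → ENNReal)),
    lintegral_mul_left_eq_self (μ := ν) (s.indicator (1 : G → ENNReal)),
    lintegral_indicator_one hs, lintegral_const, measure_univ, mul_one] at h
  exact h.symm

instance (ν : Measure G) [IsProbabilityMeasure ν] : IsProbabilityMeasure ν.inv :=
  Measure.isProbabilityMeasure_map measurable_inv.aemeasurable

theorem haar_inv [SecondCountableTopology G] (ν : Measure G) [IsProbabilityMeasure ν]
    [ν.IsMulLeftInvariant] : ν.IsInvInvariant := ⟨(left_eq_right ν ν.inv).symm⟩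

theorem haar_right [SecondCountableTopology G] (ν : Measure G) [IsProbabilityMeasure ν]
    [ν.IsMulLeftInvariant] : ν.IsMulRightInvariant := by
  rw [left_eq_right ν ν.inv]; infer_instance

theorem haar_uniq [SecondCountableTopology G] (ν ν' : Measure G) [IsProbabilityMeasure ν]
    [IsProbabilityMeasure ν'] [ν.IsMulLeftInvariant] [ν'.IsMulLeftInvariant] : ν = ν' :=
  haveI := haar_right ν'
  left_eq_right ν ν'

theorem exists_haar (G : Type) [Group G] [TopologicalSpace G] [IsTopologicalGroup G]
    [CompactSpace G] [MeasurableSpace G] [BorelSpace G] :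
    ∃ ν : Measure G, IsProbabilityMeasure ν ∧ ν.IsMulLeftInvariant :=
  ⟨Measure.haarMeasure ⊤, ⟨by simpa using Measure.haarMeasure_self (G := G) (K₀ := ⊤)⟩,
    inferInstance⟩

/-- The measure `μ` is the invariant probability of the subgroup `H`. -/
structure SubH (H : Subgroup G) (μ : Measure G) : Prop where
  prob : IsProbabilityMeasure μ
  mem : ∀ᵐ V ∂μ, V ∈ H
  left : ∀ h ∈ H, ∀ f : G → ℝ, Continuous f → ∫ V, f (h * V) ∂μ = ∫ V, f V ∂μ
  right : ∀ h ∈ H, ∀ f : G → ℝ, Continuous f → ∫ V, f (V * h) ∂μ = ∫ V, f V ∂μ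

theorem exists_subH [CompactSpace G] [SecondCountableTopology G] (H : Subgroup G)
    (hH : IsClosed (H : Set G)) : ∃ μ, SubH H μ := by
  have : CompactSpace H := isCompact_iff_compactSpace.mp hH.isCompact
  have : SecondCountableTopology H := TopologicalSpace.Subtype.secondCountableTopology (H : Set G)
  obtain ⟨ν, h1, h2⟩ := exists_haar H
  have := haar_right ν
  have hm : Measurable (Subtype.val : H → G) := measurable_subtype_coe
  have key : ∀ f : G → ℝ, Continuous f → ∫ V, f V ∂(ν.map Subtype.val) = ∫ V : H, f V ∂ν :=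
    fun f hf => integral_map hm.aemeasurable hf.aestronglyMeasurable
  refine ⟨ν.map Subtype.val, Measure.isProbabilityMeasure_map hm.aemeasurable, ?_,
    fun h hh f hf => ?_, fun h hh f hf => ?_⟩
  · exact (ae_map_iff hm.aemeasurable hH.measurableSet).mpr (.of_forall fun V => V.2)
  · rw [key _ (by fun_prop), key _ hf]
    exact integral_mul_left_eq_self (μ := ν) (fun V : H => f V) ⟨h, hh⟩
  · rw [key _ (by fun_prop), key _ hf]
    exact integral_mul_right_eq_self (μ := ν) (fun V : H => f V) ⟨h, hh⟩

theorem subH_top [SecondCountableTopology G] (ν : Measure G) [IsProbabilityMeasure ν]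
    [ν.IsMulLeftInvariant] {H : Subgroup G} (hH : ∀ V, V ∈ H) : SubH H ν :=
  haveI := haar_right ν
  ⟨inferInstance, .of_forall hH, fun h _ f _ => integral_mul_left_eq_self f h,
    fun h _ f _ => integral_mul_right_eq_self f h⟩

variable [CompactSpace G] [SecondCountableTopology G]

theorem avg_left {X : Type} [TopologicalSpace X] [CompactSpace X] [SecondCountableTopology X]
    [MeasurableSpace X] [OpensMeasurableSpace X] (ν : Measure G) [IsProbabilityMeasure ν]
    [ν.IsMulLeftInvariant] (μ : Measure X) [IsProbabilityMeasure μ] {e : X → G}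
    (he : Continuous e) {F : G → ℝ} (hF : Continuous F) :
    ∫ U, F U ∂ν = ∫ U, ∫ x, F (e x * U) ∂μ ∂ν := by
  rw [swap_int ν μ (f := fun U x => F (e x * U)) (by fun_prop)]
  simp [integral_mul_left_eq_self]

theorem avg_right {X : Type} [TopologicalSpace X] [CompactSpace X] [SecondCountableTopology X]
    [MeasurableSpace X] [OpensMeasurableSpace X] (ν : Measure G) [IsProbabilityMeasure ν]
    [ν.IsMulLeftInvariant] (μ : Measure X) [IsProbabilityMeasure μ] {e : X → G}
    (he : Continuous e) {F : G → ℝ} (hF : Continuous F) :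
    ∫ U, F U ∂ν = ∫ U, ∫ x, F (U * e x) ∂μ ∂ν := by
  have := haar_right ν
  rw [swap_int ν μ (f := fun U x => F (U * e x)) (by fun_prop)]
  simp [integral_mul_right_eq_self]

/-- The average of the derivative along an invariant flow vanishes. -/
theorem flow0 (ν : Measure G) [IsProbabilityMeasure ν] {r : ℝ → G} (hr : Continuous r)
    (hadd : ∀ s t, r (s + t) = r s * r t)
    (hν : ∀ s, ∀ f : G → ℝ, Continuous f → ∫ V, f (r s * V) ∂ν = ∫ V, f V ∂ν)
    {Φ g : G → ℝ} (hΦ : Continuous Φ) (hg : Continuous g)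
    (hd : ∀ U, HasDerivAt (fun s => Φ (r s * U)) (g U) 0) : ∫ U, g U ∂ν = 0 := by
  have h1 : ∀ U t, HasDerivAt (fun s => Φ (r s * U)) (g (r t * U)) t := fun U t => by
    have h2 : HasDerivAt (fun s => Φ (r s * (r t * U))) (g (r t * U)) (t - t) := by
      rw [sub_self]; exact hd _
    have h3 := h2.comp_sub_const t t
    refine h3.congr_of_eventuallyEq (.of_forall fun s => ?_)
    simp only [← mul_assoc, ← hadd, sub_add_cancel]
  have h2 : ∀ U, ∫ s in (0 : ℝ)..1, g (r s * U) = Φ (r 1 * U) - Φ (r 0 * U) := fun U =>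
    intervalIntegral.integral_eq_sub_of_hasDerivAt (fun t _ => h1 U t)
      (Continuous.intervalIntegrable (by fun_prop) _ _)
  have h3 : ∫ U, ∫ s in (0 : ℝ)..1, g (r s * U) ∂volume ∂ν = 0 := by
    simp only [h2]
    rw [integral_sub (intg _ (by fun_prop)) (intg _ (by fun_prop)), hν 1 _ hΦ, hν 0 _ hΦ, sub_self]
  have h4 : Integrable (uncurry fun (s : ℝ) (U : G) => g (r s * U))
      ((volume.restrict (Set.uIoc (0 : ℝ) 1)).prod ν) := by
    obtain ⟨C, hC⟩ := (isCompact_univ.image hg).isBounded.exists_norm_le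
    have : IsFiniteMeasure (volume.restrict (Set.uIoc (0 : ℝ) 1)) := by
      rw [Set.uIoc_of_le zero_le_one]; infer_instance
    refine Integrable.of_bound (Continuous.aestronglyMeasurable (by fun_prop)) C
      (.of_forall fun x => hC _ ⟨_, trivial, rfl⟩)
  rw [← intervalIntegral_integral_swap h4] at h3
  simpa [hν _ _ hg] using h3

end grp

end Vale.Agent.P166
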